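import Vale.Agent.P329.R2.H874.Clean
import Vale.Agent.P329.H259.Equiv
import Mathlib.LinearAlgebra.Matrix.SpecialLinearGroup
import Mathlib.LinearAlgebra.Matrix.Notation
import Mathlib.Data.ZMod.Basic

/-! `SL_3(F_2)`: two letters of order seven which generate the group, and the line through
`(1,0,0)` is clean for them -/

namespace Vale.Agent.P329.R2.H734

open Vale.Agent.P329 Vale.Agent.P329.H548 Vale.Agent.P329.R2.H874

/-- `F_2^3`. -/
abbrev V3 := Fin 3 → ZMod 2

/-- 3 by 3 matrices over `F_2`. -/
abbrev M3 := Matrix (Fin 3) (Fin 3) (ZMod 2)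

/-- `SL_3(F_2)`, the simple group of order 168. -/
abbrev SL3 := Matrix.SpecialLinearGroup (Fin 3) (ZMod 2)

/-- the two letters -/
def fm : Bool → M3
  | true => !![0, 0, 1; 1, 0, 0; 1, 1, 0]
  | false => !![1, 1, 0; 0, 0, 1; 1, 0, 0]

/-- their inverses -/
def gm : Bool → M3
  | true => !![0, 1, 0; 0, 1, 1; 1, 0, 0]
  | false => !![0, 0, 1; 1, 0, 1; 0, 1, 0]

/-- the root -/
def rt : V3 := ![1, 0, 0]

/-- code of a vector -/
def cd (x : V3) : ℕ := (x 0).val + 2 * (x 1).val + 4 * (x 2).val

/-- level of a pair -/
def lev (x y : V3) : ℕ := 314856560935878402174229857484736982127505804504015568896 / 8 ^ (8 * cd x + cd y) % 8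

/-- order of the points on a level -/
def ord (l : ℕ) (x : V3) : ℕ := 12319509674499287428222334153400464195634824 / 8 ^ (8 * l + cd x) % 8

/-- word length of a matrix -/
def rk (M : M3) : ℕ := 15552237601830881939198931916627927723831842729581390738522952648685819408818056901096543109266207904425751406066564869609993328461697500982994816190028058066839797576201705332070844427394028329239069764227735180424021701816130511915773820618009543672783535887219992547587959149818034624304074452337593847259849721919800205892200867521526915720439854896603540004256389932190781587237410708219812890146365161270368456942794466913254290356820118039557536533167355085296770998430819235956441124271519164405351331130503636096073585129355419807060536347809171157761343304679022459269537170584607446093992558592 /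
  16 ^ ((M 0 0).val + 2 * (M 0 1).val + 4 * (M 0 2).val + 8 * (M 1 0).val + 16 * (M 1 1).val +
    32 * (M 1 2).val + 64 * (M 2 0).val + 128 * (M 2 1).val + 256 * (M 2 2).val) % 16

/-- the inverse letters act on vectors -/
def av (a : Bool) (x : V3) : V3 := Matrix.mulVec (gm a) x

theorem cert1 : ∀ (a : Bool) (x y : V3),
    (x = y ∨ x = rt ∨ y = rt ∨ av a x = rt ∨ av a y = rt) ∨ lev (av a x) (av a y) ≤ lev x y := by
  decide +kernel

theorem cert2 : ∀ (x y : V3), x ≠ y → x ≠ rt → y ≠ rt →
    ord (lev x y) x < ord (lev x y) y := by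
  decide +kernel

theorem step0 : ∀ a b c d e f g h i : ZMod 2,
    a * e * i - a * f * h - b * d * i + b * f * g + c * d * h - c * e * g = 1 →
    !![a, b, c; d, e, f; g, h, i] = (1 : M3) ∨
    rk (!![a, b, c; d, e, f; g, h, i] * gm true) < rk !![a, b, c; d, e, f; g, h, i] ∨
    rk (!![a, b, c; d, e, f; g, h, i] * gm false) < rk !![a, b, c; d, e, f; g, h, i] := by
  decide +kernel

theorem step (M : M3) (hM : M.det = 1) :
    M = 1 ∨ rk (M * gm true) < rk M ∨ rk (M * gm false) < rk M := by
  have h := step0 (M 0 0) (M 0 1) (M 0 2) (M 1 0) (M 1 1) (M 1 2) (M 2 0) (M 2 1) (M 2 2)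
  rw [← Matrix.eta_fin_three M] at h
  exact h (by rw [← hM, Matrix.det_fin_three])

theorem det_f (b : Bool) : (fm b).det = 1 := by
  rw [Matrix.det_fin_three]
  revert b; decide +kernel

theorem det_g (b : Bool) : (gm b).det = 1 := by
  rw [Matrix.det_fin_three]
  revert b; decide +kernel

/-- the two letters in the group -/
def f3 (b : Bool) : SL3 := ⟨fm b, det_f b⟩

/-- their inverses in the group -/
def g3 (b : Bool) : SL3 := ⟨gm b, det_g b⟩

theorem fg (b : Bool) : fm b * gm b = 1 := by
  revert b; decide +kernel

theorem f3_inv (b : Bool) : (f3 b)⁻¹ = g3 b :=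
  inv_eq_of_mul_eq_one_right (Subtype.ext (fg b))

theorem closure_top : Subgroup.closure (Set.range f3) = ⊤ := by
  have key : ∀ n : ℕ, ∀ M : SL3, rk M.1 ≤ n → M ∈ Subgroup.closure (Set.range f3) := by
    intro n
    induction n with
    | zero =>
      intro M hM
      rcases step M.1 M.2 with h | h | h
      · rw [show M = 1 from Subtype.ext h]; exact Subgroup.one_mem _
      · omega
      · omega
    | succ n ih =>
      intro M hM
      have aux : ∀ b, rk (M.1 * gm b) < rk M.1 → M ∈ Subgroup.closure (Set.range f3) := by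
        intro b hb
        have h1 : M * g3 b ∈ Subgroup.closure (Set.range f3) := ih (M * g3 b) (by
          change rk (M.1 * gm b) ≤ n
          omega)
        have h2 : M * g3 b * f3 b = M := by
          rw [← f3_inv, inv_mul_cancel_right]
        rw [← h2]
        exact Subgroup.mul_mem _ h1 (Subgroup.subset_closure ⟨b, rfl⟩)
      rcases step M.1 M.2 with h | h | h
      · rw [show M = 1 from Subtype.ext h]; exact Subgroup.one_mem _
      · exact aux _ h
      · exact aux _ h
  rw [eq_top_iff]
  intro M _
  exact key _ M le_rfl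

/-- the action on vectors -/
def act3 : SL3 →* Equiv.Perm V3 :=
  (MulAction.toPermHom (V3 ≃ₗ[ZMod 2] V3) V3).comp Matrix.SpecialLinearGroup.toLin'

theorem act3_apply (M : SL3) (v : V3) : act3 M v = Matrix.mulVec M.1 v := by
  simp [act3, Matrix.SpecialLinearGroup.toLin'_apply]

theorem act3_inj : Function.Injective act3 := by
  intro M N h
  apply Subtype.ext
  have h1 : ∀ v, Matrix.mulVec M.1 v = Matrix.mulVec N.1 v := by
    intro v
    rw [← act3_apply, ← act3_apply, h]
  exact Matrix.ext_of_mulVec_single fun i => h1 _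

theorem act3_f_inv (b : Bool) (v : V3) : (act3 (f3 b))⁻¹ v = Matrix.mulVec (gm b) v := by
  rw [← map_inv, f3_inv, act3_apply]; rfl

theorem clean3 : NoCyc (dl (fun a => (act3 (f3 a))⁻¹) rt) := by
  apply noCyc_pairs (fun a => (act3 (f3 a))⁻¹) rt lev ord
  · intro a x y h1 h2 h3 h4 h5
    simp only [act3_f_inv] at h4 h5 ⊢
    rcases cert1 a x y with (h | h | h | h | h) | h
    · exact absurd h h1
    · exact absurd h h2
    · exact absurd h h3
    · exact absurd h h4
    · exact absurd h h5
    · exact h
  · exact cert2

/-- **All languages of `SL_3(F_2)` over the two letters have generalized star height at most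
one.** -/
theorem gl3 : ∃ f : Bool → Matrix.SpecialLinearGroup (Fin 3) (ZMod 2),
    Subgroup.closure (Set.range f) = ⊤ ∧
    ∀ S : Set (Matrix.SpecialLinearGroup (Fin 3) (ZMod 2)),
      ∃ x : GRE Bool, x.height ≤ 1 ∧ x.lang = {w | (w.map f).prod ∈ S} := by
  refine ⟨f3, closure_top, fun S => ?_⟩
  obtain ⟨e, he, -, hf⟩ := perm_good (fun a => act3 (f3 a)) rt clean3
  refine H259.single_mpr S 0 ⟨e, le_of_eq he, fun u v huv => ?_⟩
  have := hf u v huv
  rw [H259.prod_hom f3 act3 u, H259.prod_hom f3 act3 v] at this
  exact act3_inj this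

end Vale.Agent.P329.R2.H734
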