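import Vale.Agent.P329.R2.H874.Clean
import Vale.Agent.P329.H259.Equiv
import Mathlib.Topology.Compactification.OnePoint.ProjectiveLine
import Mathlib.LinearAlgebra.Matrix.GeneralLinearGroup.Projective

/-! `PGL_2(p)`: two letters which generate the group, for which a point of the projective line is
clean -/

namespace Vale.Agent.P329.R2.H734

open Vale.Agent.P329 Vale.Agent.P329.H548 Vale.Agent.P329.R2.H874
open scoped MatrixGroups OnePoint

section gen

variable {p : ℕ}

/-- The code of a point of the projective line. -/
def cp (x : OnePoint (ZMod p)) : ℕ := x.elim p ZMod.val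

theorem cp_infty : cp (∞ : OnePoint (ZMod p)) = p := rfl

theorem cp_coe (k : ZMod p) : cp (k : OnePoint (ZMod p)) = k.val := rfl

variable [Fact p.Prime]

/-- The action on the projective line. -/
def mob : GL (Fin 2) (ZMod p) →* Equiv.Perm (OnePoint (ZMod p)) :=
  MulAction.toPermHom _ _

theorem cp_lt (x : OnePoint (ZMod p)) : cp x < p + 1 := by
  cases x with
  | infty => rw [cp_infty]; omega
  | coe k => rw [cp_coe]; have := ZMod.val_lt k; omega

theorem cp_inj {x y : OnePoint (ZMod p)} (h : cp x = cp y) : x = y := by
  cases x with
  | infty =>
    cases y with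
    | infty => rfl
    | coe l => rw [cp_infty, cp_coe] at h; have := ZMod.val_lt l; omega
  | coe k =>
    cases y with
    | infty => rw [cp_infty, cp_coe] at h; have := ZMod.val_lt k; omega
    | coe l =>
      rw [cp_coe, cp_coe] at h
      rw [ZMod.val_injective p h]

/-- an element which fixes three points is central -/
theorem central {g : GL (Fin 2) (ZMod p)} (h0 : mob g ∞ = ∞)
    (h1 : mob g ((0 : ZMod p) : OnePoint (ZMod p)) = ((0 : ZMod p) : OnePoint (ZMod p)))
    (h2 : mob g ((1 : ZMod p) : OnePoint (ZMod p)) = ((1 : ZMod p) : OnePoint (ZMod p))) :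
    Matrix.ProjGenLinGroup.mk g = 1 := by
  change g • (∞ : OnePoint (ZMod p)) = ∞ at h0
  change g • ((0 : ZMod p) : OnePoint (ZMod p)) = ((0 : ZMod p) : OnePoint (ZMod p)) at h1
  change g • ((1 : ZMod p) : OnePoint (ZMod p)) = ((1 : ZMod p) : OnePoint (ZMod p)) at h2
  rw [OnePoint.smul_infty_eq_self_iff] at h0
  rw [OnePoint.smul_some_eq_ite, h0] at h1 h2
  have hd : g 1 1 ≠ 0 := by
    intro h
    rw [h] at h1
    simp at h1
  have h3 : g 0 1 = 0 := by
    simpa [hd] using h1
  have h4 : g 0 0 = g 1 1 := by
    rw [h3] at h2
    simp only [zero_add, hd, if_false, mul_one, add_zero, OnePoint.coe_eq_coe] at h2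
    rwa [div_eq_one_iff_eq hd] at h2
  have h5 : g = Matrix.GeneralLinearGroup.scalar (Fin 2) (Units.mk0 (g 1 1) hd) := by
    ext i j
    fin_cases i <;> fin_cases j <;> simp [h0, h3, h4]
  rw [h5]
  exact Matrix.ProjGenLinGroup.mk_scalar _

theorem main (m : Bool → Fin 2 → Fin 2 → ZMod p) (t : Bool → ℕ → ℕ) (l : ℕ → ℕ → ℕ)
    (o : ℕ → ℕ → ℕ) (r : ℕ → ℕ → ℕ → ℕ)
    (hdet : ∀ b, m b 0 0 * m b 1 1 - m b 0 1 * m b 1 0 ≠ 0)
    (hinf : ∀ b, (m b 1 0 = 0 ∧ t b p = p) ∨
      (m b 1 0 ≠ 0 ∧ m b 0 0 = (t b p : ZMod p) * m b 1 0 ∧ t b p < p))
    (hfin : ∀ b (k : ZMod p), (m b 1 0 * k + m b 1 1 = 0 ∧ t b k.val = p) ∨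
      (m b 1 0 * k + m b 1 1 ≠ 0 ∧
        m b 0 0 * k + m b 0 1 = (t b k.val : ZMod p) * (m b 1 0 * k + m b 1 1) ∧ t b k.val < p))
    (h1 : ∀ b, ∀ i < p + 1, ∀ j < p + 1,
      (i = j ∨ i = 0 ∨ j = 0 ∨ t b i = 0 ∨ t b j = 0) ∨ l (t b i) (t b j) ≤ l i j)
    (h2 : ∀ i < p + 1, ∀ j < p + 1, (i = j ∨ i = 0 ∨ j = 0) ∨ o (l i j) i < o (l i j) j)
    (h3 : ∀ i < p + 1, ∀ j < p + 1, ∀ k < p + 1, (i == j || j == k || i == k ||
      (i == p && j == 0 && k == 1) || decide (r (t true i) (t true j) (t true k) < r i j k) ||
      decide (r (t false i) (t false j) (t false k) < r i j k)) = true) :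
    ∃ f : Bool → PGL(2, ZMod p), Subgroup.closure (Set.range f) = ⊤ ∧
    ∀ S : Set (PGL(2, ZMod p)), ∃ x : GRE Bool, x.height ≤ 1 ∧
      x.lang = {w | (w.map f).prod ∈ S} := by
  classical
  let g : Bool → GL (Fin 2) (ZMod p) := fun b =>
    Matrix.GeneralLinearGroup.mkOfDetNeZero (Matrix.of (m b)) (by
      rw [Matrix.det_fin_two]; exact hdet b)
  have ge : ∀ b i j, g b i j = m b i j := fun b i j => rfl
  have hact : ∀ b x, cp (mob (g b) x) = t b (cp x) := by
    intro b x
    change cp (g b • x) = t b (cp x)
    cases x with
    | infty =>
      rw [OnePoint.smul_infty_eq_ite, cp_infty, ge, ge]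
      rcases hinf b with ⟨h, h'⟩ | ⟨h, h', h''⟩
      · rw [if_pos h, cp_infty, h']
      · rw [if_neg h, h', mul_div_assoc, div_self h, mul_one, cp_coe, ZMod.val_natCast,
          Nat.mod_eq_of_lt h'']
    | coe k =>
      rw [OnePoint.smul_some_eq_ite, cp_coe, ge, ge, ge, ge]
      rcases hfin b k with ⟨h, h'⟩ | ⟨h, h', h''⟩
      · rw [if_pos h, cp_infty, h']
      · rw [if_neg h, h', mul_div_assoc, div_self h, mul_one, cp_coe, ZMod.val_natCast,
          Nat.mod_eq_of_lt h'']
  let F : Bool → GL (Fin 2) (ZMod p) := fun b => (g b)⁻¹
  have hF : ∀ b, (mob (F b))⁻¹ = mob (g b) := fun b => by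
    rw [← map_inv]; simp [F]
  have hr : cp ((0 : ZMod p) : OnePoint (ZMod p)) = 0 := by rw [cp_coe, ZMod.val_zero]
  have hr1 : cp ((1 : ZMod p) : OnePoint (ZMod p)) = 1 := by
    rw [cp_coe, ZMod.val_one]
  have hc : ∀ x : OnePoint (ZMod p), cp x = 0 → x = ((0 : ZMod p) : OnePoint (ZMod p)) :=
    fun x hx => cp_inj (hx.trans hr.symm)
  have hclean : NoCyc (dl (fun b => (mob (F b))⁻¹) ((0 : ZMod p) : OnePoint (ZMod p))) := by
    apply noCyc_pairs (fun b => (mob (F b))⁻¹) _ (fun x y => l (cp x) (cp y))
      (fun n x => o n (cp x))
    · intro b x y hxy hx hy hax hay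
      rw [hF] at hax hay ⊢
      rcases h1 b (cp x) (cp_lt x) (cp y) (cp_lt y) with (h | h | h | h | h) | h
      · exact absurd (cp_inj h) hxy
      · exact absurd (hc x h) hx
      · exact absurd (hc y h) hy
      · exact absurd (hc _ ((hact b x).trans h)) hax
      · exact absurd (hc _ ((hact b y).trans h)) hay
      · rw [hact, hact]; exact h
    · intro x y hxy hx hy
      rcases h2 (cp x) (cp_lt x) (cp y) (cp_lt y) with (h | h | h) | h
      · exact absurd (cp_inj h) hxy
      · exact absurd (hc x h) hx
      · exact absurd (hc y h) hy
      · exact h
  refine ⟨fun b => Matrix.ProjGenLinGroup.mk (F b), ?_, fun S => ?_⟩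
  · have key : ∀ n : ℕ, ∀ M : GL (Fin 2) (ZMod p),
        r (cp (mob M ∞)) (cp (mob M ((0 : ZMod p) : OnePoint (ZMod p))))
          (cp (mob M ((1 : ZMod p) : OnePoint (ZMod p)))) < n →
        Matrix.ProjGenLinGroup.mk M ∈
          Subgroup.closure (Set.range fun b => Matrix.ProjGenLinGroup.mk (F b)) := by
      intro n
      induction n with
      | zero => intro M hM; omega
      | succ n ih =>
        intro M hM
        have aux : ∀ b, r (t b (cp (mob M ∞)))
            (t b (cp (mob M ((0 : ZMod p) : OnePoint (ZMod p)))))
            (t b (cp (mob M ((1 : ZMod p) : OnePoint (ZMod p))))) <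
            r (cp (mob M ∞)) (cp (mob M ((0 : ZMod p) : OnePoint (ZMod p))))
              (cp (mob M ((1 : ZMod p) : OnePoint (ZMod p)))) →
            Matrix.ProjGenLinGroup.mk M ∈
              Subgroup.closure (Set.range fun b => Matrix.ProjGenLinGroup.mk (F b)) := by
          intro b hb
          have h4 := ih (g b * M) (by
            have e : ∀ x, cp (mob (g b * M) x) = t b (cp (mob M x)) := fun x => by
              rw [map_mul, Equiv.Perm.mul_apply, hact]
            rw [e, e, e]
            omega)
          have h5 : Matrix.ProjGenLinGroup.mk M =
              Matrix.ProjGenLinGroup.mk (F b) * Matrix.ProjGenLinGroup.mk (g b * M) := by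
            rw [← map_mul, inv_mul_cancel_left]
          rw [h5]
          exact Subgroup.mul_mem _ (Subgroup.subset_closure ⟨b, rfl⟩) h4
        have h6 := h3 _ (cp_lt (mob M ∞)) _ (cp_lt (mob M ((0 : ZMod p) : OnePoint (ZMod p))))
          _ (cp_lt (mob M ((1 : ZMod p) : OnePoint (ZMod p))))
        simp only [Bool.or_eq_true, Bool.and_eq_true, beq_iff_eq, decide_eq_true_eq] at h6
        rcases h6 with ((((h | h) | h) | h) | h) | h
        · exact absurd ((mob M).injective (cp_inj h)) (OnePoint.infty_ne_coe _)
        · have := (mob M).injective (cp_inj h)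
          rw [OnePoint.coe_eq_coe] at this
          exact absurd this zero_ne_one
        · exact absurd ((mob M).injective (cp_inj h)) (OnePoint.infty_ne_coe _)
        · obtain ⟨⟨ha, hb⟩, hc'⟩ := h
          rw [central (cp_inj (ha.trans cp_infty.symm)) (hc _ hb) (cp_inj (hc'.trans hr1.symm))]
          exact Subgroup.one_mem _
        · exact aux _ h
        · exact aux _ h
    rw [eq_top_iff]
    intro M _
    obtain ⟨M, rfl⟩ := Matrix.ProjGenLinGroup.mk_surjective M
    exact key _ M (Nat.lt_succ_self _)
  · have hfin : Finite (OnePoint (ZMod p)) := inferInstanceAs (Finite (Option (ZMod p)))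
    obtain ⟨e, he, -, hf⟩ := perm_good (fun b => mob (F b)) _ hclean
    refine H259.single_mpr S 0 ⟨e, le_of_eq he, fun u v huv => ?_⟩
    have h4 := hf u v huv
    rw [H259.prod_hom F mob u, H259.prod_hom F mob v] at h4
    rw [H259.prod_hom F Matrix.ProjGenLinGroup.mk u, H259.prod_hom F Matrix.ProjGenLinGroup.mk v]
    have h5 : mob ((v.map F).prod⁻¹ * (u.map F).prod) = 1 := by
      rw [map_mul, map_inv, h4, inv_mul_cancel]
    have h6 : Matrix.ProjGenLinGroup.mk ((v.map F).prod⁻¹ * (u.map F).prod) = 1 := by
      apply central <;> rw [h5] <;> rfl
    rw [map_mul, map_inv, inv_mul_eq_one] at h6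
    exact h6.symm

end gen

/-! ### `p = 7` -/

theorem fact7 : Fact (Nat.Prime 7) := ⟨by norm_num⟩

/-- entries of the inverse letters -/
def m7 : Bool → Fin 2 → Fin 2 → ZMod 7
  | true => !![1, 2; 3, 2]
  | false => !![1, 2; 6, 4]

/-- their action on codes of points -/
def t7 (b : Bool) (i : ℕ) : ℕ := (if b then 1443312673 else 1661424148) / 16 ^ i % 16

/-- level of a pair -/
def l7 (i j : ℕ) : ℕ := 455971640242785966439801666194446974390579507762747230430007992198478430208 / 16 ^ (8 * i + j) % 16

/-- order of the points on a level -/
def o7 (l i : ℕ) : ℕ := 20780331876453785697511551504 / 16 ^ (8 * l + i) % 16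

/-- word length of an element, read off the images of `∞, 0, 1` -/
def r7 (i j k : ℕ) : ℕ := 111671297836356482738504218373903110813998658925786975660585631771144830030971668227270902055208100553446054509841876489094650247320853012518766954536809611619551399242053319572944512057040090677789586931072844160785406319822868617488444330268094516328592758516582756497703752762319556920509857852390848728471794915369632238501400051252990065595702939943588669865826261225563947375834844363897182684436056599886173797006163243072891357339799593389350817603680022325288324972549263028224757775823117844826474228414136368857745113909644143583830510610937256877549782121413754307051967722702556965776600801226050738542449585588599149998147554843942927438264378496137242095571677297961456635029308375509139362413132813554755687591733768596102250015380543111168 / 32 ^ (64 * i + 8 * j + k) % 32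

/-- **All languages of `PGL_2(7)` over two letters which generate it have height at most one.** -/
theorem pgl7 : ∃ f : Bool → PGL(2, ZMod 7), Subgroup.closure (Set.range f) = ⊤ ∧
    ∀ S : Set (PGL(2, ZMod 7)), ∃ x : GRE Bool, x.height ≤ 1 ∧
      x.lang = {w | (w.map f).prod ∈ S} := by
  refine @main 7 fact7 m7 t7 l7 o7 r7 ?_ ?_ ?_ ?_ ?_ ?_
  · decide +kernel
  · decide +kernel
  · decide +kernel
  · decide +kernel
  · decide +kernel
  · decide +kernel

/-! ### `p = 11` -/

theorem fact11 : Fact (Nat.Prime 11) := ⟨by norm_num⟩

/-- entries of the inverse letters -/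
def m11 : Bool → Fin 2 → Fin 2 → ZMod 11
  | true => !![1, 5; 8, 6]
  | false => !![1, 4; 2, 3]

/-- their action on codes of points -/
def t11 (b : Bool) (i : ℕ) : ℕ := (if b then 133274988190506 else 109500336645141) / 16 ^ i % 16

/-- level of a pair -/
def l11 (i j : ℕ) : ℕ := 5076027503542386819125895838618642230154843141102627247819480880479427317495656495692673161068298748804235026961995115290338788040275279840127266474690933298907398482690048 / 16 ^ (12 * i + j) % 16

/-- order of the points on a level -/
def o11 (l i : ℕ) : ℕ := 23784173840093189760263417838636006568740521152528212477402418057495148275565199101015119542808214534525033322394128 / 16 ^ (12 * l + i) % 16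

/-- word length of an element, read off the images of `∞, 0, 1` -/
def r11 (i j k : ℕ) : ℕ := 194303458447849459784918255510979288453971064557422118288942217351776153938686130080658559094043335136473805681309117136620784989696816641148928786341271570419445391622624783477915925735012345664021016611300545444546461574929760567949617253638101304805795001858664267578601582482014094975046548575930606466960760170616648903417700622000676575187334400359225468631123684559946209354972317809118276908714347480682654003698374068999033352606743155078234841959968330964289009738993801359011993023180070086628941878177472053575819656364717777232454235666249375688214647180243635992709375109460314655565111479861812946441928504526446641469079886227469273562574214867736234973805725375125170592590435944558388368290216582591225808037786017395924046162984908818546574473990335367774345162893878907471074413093744629339154326477024234604466221983272661064366983834752001996436484737728100013694252468340989622136664475813834405740530133123757091671932222407202155830605640603883799430132352938371515718437608045372417227924781138646163772606069664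331419516590793674346136568759727178538146402183733357286761440369517924165010908601286740205399832745743900182746769952895727051129821818542573530210964632103883386607769650743664166741162271487639193216835010541850193222996738354163943642166578746423369183337267686842677392409082657942624265015254297534885445143736584503362103600695511279269232013301586461447200604676479842356798530329978296873453829929483481608986898643793440660625903777561417669580560104667527965293526150230838091720621095283135938763395337205960123028353906742544156434137609758357571967617927954015865188451703184658417182129892869007968192766374434765468360919478521946024243550089304655656475805710479113283669263775130746932560750707990544326119925316537945246411730791293627084806145147909703526935890217315290202016714766608271761407588084343080119374751443679855872543568903433634102386043429144742047463822485228426494257498829685815431500520519816735960567560806801797543447729154619698622157850075040198129262875361455737867755195027938617834458279387642174593513037124222408024993540063337227466177558406583310682371012004627350092865448835530766051073755259165946986863232253488072531461297825460893479429479900672020852421851731890152554510803203314717074524473709745496475329083023870637136120347348871104330697150677947703709792492016708391910897142008629521730237674932353880841083890565418636037541197563533304574194716712841408138176434624814460420695372802581482438309218631156042135776297094049972869491604322299051772202218321364849389159317504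 / 32 ^ (144 * i + 12 * j + k) % 32

/-- **All languages of `PGL_2(11)` over two letters which generate it have height at most one.** -/
theorem pgl11 : ∃ f : Bool → PGL(2, ZMod 11), Subgroup.closure (Set.range f) = ⊤ ∧
    ∀ S : Set (PGL(2, ZMod 11)), ∃ x : GRE Bool, x.height ≤ 1 ∧
      x.lang = {w | (w.map f).prod ∈ S} := by
  refine @main 11 fact11 m11 t11 l11 o11 r11 ?_ ?_ ?_ ?_ ?_ ?_
  · decide +kernel
  · decide +kernel
  · decide +kernel
  · decide +kernel
  · decide +kernel
  · decide +kernel

end Vale.Agent.P329.R2.H734
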