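import Vale.Agent.P329.R2.H874.Clean
import Vale.Agent.P329.H259.Equiv
import Mathlib.Topology.Compactification.OnePoint.ProjectiveLine
import Mathlib.LinearAlgebra.Matrix.GeneralLinearGroup.Projective
import Mathlib.FieldTheory.Finite.GaloisField

/-! `SL_2(8) = PSL_2(8)`, the simple group of order 504: two letters which generate the group,
for which a point of the projective line is clean -/

namespace Vale.Agent.P329.R2.H734.E

open Vale.Agent.P329 Vale.Agent.P329.H548 Vale.Agent.P329.R2.H874
open scoped MatrixGroups OnePoint

/-! ### A concrete field with eight elements -/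

/-- `F_2[x]/(x^3+x+1)`, the polynomial `a + bx + cx^2` coded by `a + 2b + 4c`. -/
def F8 : Type := Fin 8

namespace F8

instance : DecidableEq F8 := inferInstanceAs (DecidableEq (Fin 8))
instance : Fintype F8 := inferInstanceAs (Fintype (Fin 8))

/-- from codes -/
def dec (n : ℕ) : F8 := Fin.ofNat 8 n

/-- to codes -/
def cod (x : F8) : ℕ := Fin.val (n := 8) x

/-- addition -/
def add (x y : F8) : F8 := dec (Nat.xor (cod x) (cod y))

/-- multiplication -/
def mul (x y : F8) : F8 := dec (2821848294356612419217921029917578219971947684264937521152 / 8 ^ (8 * cod x + cod y) % 8)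

/-- inverse -/
def inv (x : F8) : F8 := dec (9272648 / 8 ^ cod x % 8)

instance : Zero F8 := ⟨dec 0⟩
instance : One F8 := ⟨dec 1⟩
instance : Add F8 := ⟨add⟩
instance : Mul F8 := ⟨mul⟩
instance : Neg F8 := ⟨id⟩
instance : Inv F8 := ⟨inv⟩

instance : Field F8 where
  add := add
  add_assoc := by decide +kernel
  zero := dec 0
  zero_add := by decide +kernel
  add_zero := by decide +kernel
  nsmul := nsmulRec
  add_comm := by decide +kernel
  mul := mul
  left_distrib := by decide +kernel
  right_distrib := by decide +kernel
  zero_mul := by decide +kernel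
  mul_zero := by decide +kernel
  mul_assoc := by decide +kernel
  one := dec 1
  one_mul := by decide +kernel
  mul_one := by decide +kernel
  neg := id
  zsmul := zsmulRec
  neg_add_cancel := by decide +kernel
  mul_comm := by decide +kernel
  inv := inv
  exists_pair_ne := ⟨dec 0, dec 1, by decide +kernel⟩
  mul_inv_cancel := by decide +kernel
  inv_zero := by decide +kernel
  nnqsmul := _
  nnqsmul_def := fun _ _ => rfl
  qsmul := _
  qsmul_def := fun _ _ => rfl

theorem cod_lt (x : F8) : cod x < 8 := Fin.isLt (n := 8) x

theorem cod_inj {x y : F8} (h : cod x = cod y) : x = y := Fin.ext (n := 8) h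

theorem cod_dec {n : ℕ} (h : n < 8) : cod (dec n) = n := Nat.mod_eq_of_lt h

end F8

/-- The code of a point of the projective line. -/
def cp (x : OnePoint F8) : ℕ := x.elim 8 F8.cod

theorem cp_infty : cp ∞ = 8 := rfl

theorem cp_coe (k : F8) : cp (k : OnePoint F8) = F8.cod k := rfl

theorem cp_lt (x : OnePoint F8) : cp x < 9 := by
  cases x with
  | infty => rw [cp_infty]; omega
  | coe k => rw [cp_coe]; have := F8.cod_lt k; omega

theorem cp_inj {x y : OnePoint F8} (h : cp x = cp y) : x = y := by
  cases x with
  | infty =>
    cases y with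
    | infty => rfl
    | coe l => rw [cp_infty, cp_coe] at h; have := F8.cod_lt l; omega
  | coe k =>
    cases y with
    | infty => rw [cp_infty, cp_coe] at h; have := F8.cod_lt k; omega
    | coe l =>
      rw [cp_coe, cp_coe] at h
      rw [F8.cod_inj h]

/-- The action on the projective line. -/
def mob : SL(2, F8) →* Equiv.Perm (OnePoint F8) :=
  (MulAction.toPermHom (GL (Fin 2) F8) (OnePoint F8)).comp Matrix.SpecialLinearGroup.toGL

theorem sq_one : ∀ u : F8, u * u = 1 → u = 1 := by decide +kernel

/-- an element which fixes three points is trivial -/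
theorem central {g : SL(2, F8)} (h0 : mob g ∞ = ∞)
    (h1 : mob g ((0 : F8) : OnePoint F8) = ((0 : F8) : OnePoint F8))
    (h2 : mob g ((1 : F8) : OnePoint F8) = ((1 : F8) : OnePoint F8)) : g = 1 := by
  change (g : GL (Fin 2) F8) • (∞ : OnePoint F8) = ∞ at h0
  change (g : GL (Fin 2) F8) • ((0 : F8) : OnePoint F8) = ((0 : F8) : OnePoint F8) at h1
  change (g : GL (Fin 2) F8) • ((1 : F8) : OnePoint F8) = ((1 : F8) : OnePoint F8) at h2
  rw [OnePoint.smul_infty_eq_self_iff] at h0
  rw [OnePoint.smul_some_eq_ite, h0] at h1 h2
  have hd : (g : GL (Fin 2) F8) 1 1 ≠ 0 := by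
    intro h
    rw [h] at h1
    simp at h1
  have h3 : (g : GL (Fin 2) F8) 0 1 = 0 := by
    simpa only [zero_mul, mul_zero, zero_add, hd, if_false, OnePoint.coe_eq_coe, div_eq_zero_iff,
      or_false] using h1
  have h4 : (g : GL (Fin 2) F8) 0 0 = (g : GL (Fin 2) F8) 1 1 := by
    rw [h3] at h2
    simp only [zero_add, hd, if_false, mul_one, add_zero, OnePoint.coe_eq_coe] at h2
    rwa [div_eq_one_iff_eq hd] at h2
  change g.1 1 0 = 0 at h0
  change g.1 0 1 = 0 at h3
  change g.1 0 0 = g.1 1 1 at h4
  have h5 := g.2
  rw [Matrix.det_fin_two] at h5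
  rw [h3, h4, zero_mul, sub_zero] at h5
  have h6 := sq_one _ h5
  apply Subtype.ext
  ext i j
  change g.1 i j = (1 : Matrix (Fin 2) (Fin 2) F8) i j
  fin_cases i <;> fin_cases j
  · simpa [h4] using h6
  · simpa using h3
  · simpa using h0
  · simpa using h6

/-- the inverse letters -/
def gm : Bool → Fin 2 → Fin 2 → F8
  | true => ![![F8.dec 0, F8.dec 3], ![F8.dec 6, F8.dec 3]]
  | false => ![![F8.dec 1, F8.dec 7], ![F8.dec 2, F8.dec 4]]

/-- their action on codes of points -/
def t (b : Bool) (i : ℕ) : ℕ := (if b then 1938113121 else 21580163091) / 16 ^ i % 16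

/-- level of a pair -/
def l (i j : ℕ) : ℕ := 150744752235291101303699706707407542943887776102566060505011885066750442971216817840977468194816 / 16 ^ (9 * i + j) % 16

/-- order of the points on a level -/
def o (l i : ℕ) : ℕ := 85497523065812099643744727672848 / 16 ^ (9 * l + i) % 16

/-- word length of an element, read off the images of `∞, 0, 1` -/
def r (i j k : ℕ) : ℕ := 1432712683373056235736568307252887020901841020388937192079345631230162390238871052675625306333529751081263887089970831540308137718985176241441984359462166362994453923095926317594537734832039355519412871333019210235431451559474110082585339080263977277622782837594811906796433090259743847459382181843930048969362034780191195110685768498449211041332087053557405619483647009683720147927051290682838535315391826722993602471077515007123182316606884386527301725051185388069134444874068692924480213405265804387993712326877146434535914736020308059397088845379910157841323724621545416883937726875754462161910815309069308827908080998007989613430979982824253019551650540498037657280778501091311369561263268744931600748736271118004104196099552592947374026088895835367565288164892757210014219880692016321824344047331670719614091848647608096745433565099355251137837529008304738269941599193911396005071283761739685148730400162411828324903918889549922327911962132271737156783892007611186105506351015106455820086465884927270172463416804987862888554885481740397857138047386452174425913475797790752768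 /
  32 ^ (81 * i + 9 * j + k) % 32

theorem hdet : ∀ b, gm b 0 0 * gm b 1 1 - gm b 0 1 * gm b 1 0 = 1 := by decide +kernel

theorem hinf : ∀ b, (gm b 1 0 = 0 ∧ t b 8 = 8) ∨
    (gm b 1 0 ≠ 0 ∧ gm b 0 0 = F8.dec (t b 8) * gm b 1 0 ∧ t b 8 < 8) := by decide +kernel

theorem hfin : ∀ b (k : F8), (gm b 1 0 * k + gm b 1 1 = 0 ∧ t b (F8.cod k) = 8) ∨
    (gm b 1 0 * k + gm b 1 1 ≠ 0 ∧
      gm b 0 0 * k + gm b 0 1 = F8.dec (t b (F8.cod k)) * (gm b 1 0 * k + gm b 1 1) ∧
      t b (F8.cod k) < 8) := by decide +kernel

theorem h1 : ∀ b, ∀ i < 9, ∀ j < 9,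
    (i = j ∨ i = 0 ∨ j = 0 ∨ t b i = 0 ∨ t b j = 0) ∨ l (t b i) (t b j) ≤ l i j := by
  decide +kernel

theorem h2 : ∀ i < 9, ∀ j < 9, (i = j ∨ i = 0 ∨ j = 0) ∨ o (l i j) i < o (l i j) j := by
  decide +kernel

theorem h3 : ∀ i < 9, ∀ j < 9, ∀ k < 9, (i == j || j == k || i == k ||
    (i == 8 && j == 0 && k == 1) || decide (r (t true i) (t true j) (t true k) < r i j k) ||
    decide (r (t false i) (t false j) (t false k) < r i j k)) = true := by
  decide +kernel

/-- the inverse letters in the group -/
def g (b : Bool) : SL(2, F8) := ⟨Matrix.of (gm b), by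
  rw [Matrix.det_fin_two]; exact hdet b⟩

theorem hact (b : Bool) (x : OnePoint F8) : cp (mob (g b) x) = t b (cp x) := by
  change cp ((g b : GL (Fin 2) F8) • x) = t b (cp x)
  have ge : ∀ i j, (g b : GL (Fin 2) F8) i j = gm b i j := fun i j => rfl
  cases x with
  | infty =>
    rw [OnePoint.smul_infty_eq_ite, cp_infty, ge, ge]
    rcases hinf b with ⟨h, h'⟩ | ⟨h, h', h''⟩
    · rw [if_pos h, cp_infty, h']
    · rw [if_neg h, h', mul_div_assoc, div_self h, mul_one, cp_coe, F8.cod_dec h'']
  | coe k =>
    rw [OnePoint.smul_some_eq_ite, cp_coe, ge, ge, ge, ge]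
    rcases hfin b k with ⟨h, h'⟩ | ⟨h, h', h''⟩
    · rw [if_pos h, cp_infty, h']
    · rw [if_neg h, h', mul_div_assoc, div_self h, mul_one, cp_coe, F8.cod_dec h'']

/-- the letters -/
def F (b : Bool) : SL(2, F8) := (g b)⁻¹

theorem hF (b : Bool) : (mob (F b))⁻¹ = mob (g b) := by
  rw [← map_inv]; simp [F]

theorem hr : cp ((0 : F8) : OnePoint F8) = 0 := rfl

theorem hr1 : cp ((1 : F8) : OnePoint F8) = 1 := rfl

theorem hc (x : OnePoint F8) (hx : cp x = 0) : x = ((0 : F8) : OnePoint F8) :=
  cp_inj (hx.trans hr.symm)

theorem clean : NoCyc (dl (fun b => (mob (F b))⁻¹) ((0 : F8) : OnePoint F8)) := by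
  apply noCyc_pairs (fun b => (mob (F b))⁻¹) _ (fun x y => l (cp x) (cp y))
    (fun n x => o n (cp x))
  · intro b x y hxy hx hy hax hay
    rw [hF] at hax hay ⊢
    rcases h1 b (cp x) (cp_lt x) (cp y) (cp_lt y) with (h | h | h | h | h) | h
    · exact absurd (cp_inj h) hxy
    · exact absurd (hc x h) hx
    · exact absurd (hc y h) hy
    · exact absurd (hc _ ((hact b x).trans h)) hax
    · exact absurd (hc _ ((hact b y).trans h)) hay
    · rw [hact, hact]; exact h
  · intro x y hxy hx hy
    rcases h2 (cp x) (cp_lt x) (cp y) (cp_lt y) with (h | h | h) | h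
    · exact absurd (cp_inj h) hxy
    · exact absurd (hc x h) hx
    · exact absurd (hc y h) hy
    · exact h

theorem closure_F : Subgroup.closure (Set.range F) = ⊤ := by
  have key : ∀ n : ℕ, ∀ M : SL(2, F8),
      r (cp (mob M ∞)) (cp (mob M ((0 : F8) : OnePoint F8)))
        (cp (mob M ((1 : F8) : OnePoint F8))) < n → M ∈ Subgroup.closure (Set.range F) := by
    intro n
    induction n with
    | zero => intro M hM; omega
    | succ n ih =>
      intro M hM
      have aux : ∀ b, r (t b (cp (mob M ∞))) (t b (cp (mob M ((0 : F8) : OnePoint F8))))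
          (t b (cp (mob M ((1 : F8) : OnePoint F8)))) <
          r (cp (mob M ∞)) (cp (mob M ((0 : F8) : OnePoint F8)))
            (cp (mob M ((1 : F8) : OnePoint F8))) → M ∈ Subgroup.closure (Set.range F) := by
        intro b hb
        have h4 := ih (g b * M) (by
          have e : ∀ x, cp (mob (g b * M) x) = t b (cp (mob M x)) := fun x => by
            rw [map_mul, Equiv.Perm.mul_apply, hact]
          rw [e, e, e]
          omega)
        have h5 : M = F b * (g b * M) := by
          rw [F, inv_mul_cancel_left]
        rw [h5]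
        exact Subgroup.mul_mem _ (Subgroup.subset_closure ⟨b, rfl⟩) h4
      have h6 := h3 _ (cp_lt (mob M ∞)) _ (cp_lt (mob M ((0 : F8) : OnePoint F8)))
        _ (cp_lt (mob M ((1 : F8) : OnePoint F8)))
      simp only [Bool.or_eq_true, Bool.and_eq_true, beq_iff_eq, decide_eq_true_eq] at h6
      rcases h6 with ((((h | h) | h) | h) | h) | h
      · exact absurd ((mob M).injective (cp_inj h)) (OnePoint.infty_ne_coe _)
      · have := (mob M).injective (cp_inj h)
        rw [OnePoint.coe_eq_coe] at this
        exact absurd this zero_ne_one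
      · exact absurd ((mob M).injective (cp_inj h)) (OnePoint.infty_ne_coe _)
      · obtain ⟨⟨ha, hb⟩, hc'⟩ := h
        rw [central (cp_inj (ha.trans cp_infty.symm)) (hc _ hb) (cp_inj (hc'.trans hr1.symm))]
        exact Subgroup.one_mem _
      · exact aux _ h
      · exact aux _ h
  rw [eq_top_iff]
  intro M _
  exact key _ M (Nat.lt_succ_self _)

/-- **The simple group `SL_2(8) = PSL_2(8)` of order 504**: two letters which generate it and over
which all its languages have generalized star height at most one; `K` is any field with eight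
elements. -/
theorem sl2_8 (K : Type) [Field K] (hK : Nat.card K = 8) :
    ∃ f : Bool → SL(2, K), Subgroup.closure (Set.range f) = ⊤ ∧
    ∀ S : Set (SL(2, K)), ∃ x : GRE Bool, x.height ≤ 1 ∧
      x.lang = {w | (w.map f).prod ∈ S} := by
  classical
  have hfinK : Finite K := Nat.finite_of_card_ne_zero (by omega)
  have := Fintype.ofFinite K
  have e : F8 ≃+* K := FiniteField.ringEquivOfCardEq (by
    rw [← Nat.card_eq_fintype_card (α := K), hK]; rfl)
  let φ : SL(2, F8) →* SL(2, K) := Matrix.SpecialLinearGroup.map (e : F8 →+* K)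
  have hinj : Function.Injective φ := by
    intro M N h
    apply Subtype.ext
    ext i j
    have h' := congrArg (fun A : SL(2, K) => A.1 i j) h
    exact e.injective h'
  have hsurj : Function.Surjective φ := by
    intro M
    refine ⟨Matrix.SpecialLinearGroup.map (e.symm : K →+* F8) M, ?_⟩
    apply Subtype.ext
    ext i j
    exact e.apply_symm_apply (M.1 i j)
  refine ⟨fun b => φ (F b), ?_, fun S => ?_⟩
  · have h1 : Set.range (fun b => φ (F b)) = φ '' Set.range F := by
      rw [← Set.range_comp]; rfl
    rw [h1, ← MonoidHom.map_closure, closure_F, ← MonoidHom.range_eq_map,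
      MonoidHom.range_eq_top.2 hsurj]
  · have hfin : Finite (OnePoint F8) := inferInstanceAs (Finite (Option F8))
    obtain ⟨y, hy, -, hf⟩ := perm_good (fun b => mob (F b)) _ clean
    refine H259.single_mpr S 0 ⟨y, le_of_eq hy, fun u v huv => ?_⟩
    have h4 := hf u v huv
    rw [H259.prod_hom F mob u, H259.prod_hom F mob v] at h4
    rw [H259.prod_hom F φ u, H259.prod_hom F φ v]
    have h5 : mob ((v.map F).prod⁻¹ * (u.map F).prod) = 1 := by
      rw [map_mul, map_inv, h4, inv_mul_cancel]
    have h6 : (v.map F).prod⁻¹ * (u.map F).prod = 1 := by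
      apply central <;> rw [h5] <;> rfl
    rw [inv_mul_eq_one] at h6
    rw [h6]

end Vale.Agent.P329.R2.H734.E
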